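import Vale.Agent.P139.R2.H572.High
import Vale.Agent.P139.R2.H836.Meas
import Vale.Agent.P139.R2.H959.NRMain

/-! P139 (team P139-N), row R1: quantitative nonresonance. -/

set_option autoImplicit false

namespace Vale.Agent.P139.R2.H572

theorem highCases' : R2N.HighCases := highCases

theorem nrThm : BN.NRThm := R2N.nrThm_of R2D.measSmall highCases'

end Vale.Agent.P139.R2.H572
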