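import Vale.Agent.P139.R2.H572.High
import Vale.Agent.P139.R2.H959.NRDef2

/-!
# P139 (team P139-N), stage 2, row S1 (E): divisors with at most two high levels, long interval

`HighCasesQ m`: as `High.lean`, with `μ` in `[2 ^ (-3 m N), 2 ^ (3 m N)]`.
-/

set_option autoImplicit false
set_option linter.all false

namespace Vale.Agent.P139.R2.H572

open Finset
open Vale.Agent.P139.H212

/-- bound of the low part -/
lemma low_boundQ {μ M : ℝ} {N L j : ℕ} (hμ : 0 ≤ μ) (hM : μ ≤ M) (hj : j ≤ 10 * N)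
    (s : Fin j → Bool) (lv : Fin j → ℕ) :
    |∑ l ∈ univ.filter (fun l => ¬ L ≤ lv l), sg (s l) * om μ (lv l)| ≤
      10 * N * ((L : ℝ) + M) := by
  have hM0 : 0 ≤ M := hμ.trans hM
  refine (Finset.abs_sum_le_sum_abs _ _).trans ?_
  have h1 : ∀ l ∈ univ.filter (fun l => ¬ L ≤ lv l), |sg (s l) * om μ (lv l)| ≤ (L : ℝ) + M := by
    intro l hl
    have hl' : lv l < L := by simpa using hl
    rw [abs_mul, sg_abs, one_mul, abs_of_nonneg (om_nonneg _)]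
    have h2 := om_le hμ (lv l)
    have h3 : (lv l : ℝ) ≤ L := by exact_mod_cast hl'.le
    linarith
  refine (Finset.sum_le_card_nsmul _ _ _ h1).trans ?_
  rw [nsmul_eq_mul]
  have h2 : ((univ.filter (fun l => ¬ L ≤ lv l)).card : ℝ) ≤ 10 * N := by
    have h3 : (univ.filter (fun l => ¬ L ≤ lv l)).card ≤ 10 * N :=
      (Finset.card_le_univ _).trans (by simpa using hj)
    exact_mod_cast h3
  have h4 : (0 : ℝ) ≤ (L : ℝ) + M := by positivity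
  exact mul_le_mul_of_nonneg_right h2 h4

lemma x_boundQ {μ M : ℝ} {N : ℕ} (hμ0 : 0 < μ) (hμM : μ ≤ M) :
    μ ^ 2 / (M ^ 2 * 2 ^ (N ^ 4 + 1)) ≤ ((2 : ℝ) ^ (N ^ 4))⁻¹ / 2 := by
  have hM : 0 < M := hμ0.trans_le hμM
  have h8 : μ ^ 2 ≤ M ^ 2 := by gcongr
  rw [pow_succ (2 : ℝ) (N ^ 4)]
  generalize hA : (2 : ℝ) ^ (N ^ 4) = A
  have hA0 : 0 < A := by rw [← hA]; positivity
  rw [div_le_iff₀ (by positivity)]
  have h9 : A⁻¹ / 2 * (M ^ 2 * (A * 2)) = M ^ 2 := by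
    field_simp
  rw [h9]
  exact h8

/-- the low part is not balanced, one level is huge -/
lemma case_hugeQ {μ M : ℝ} {N Q : ℕ} (hμ0 : 0 < μ) (hμN : μ ≤ M)
    (hn1' : 10 * (N : ℝ) * (((4 ^ (N + 8) : ℕ) : ℝ) + M) + 1 ≤ 2 ^ Q)
    (hn2 : M ^ 2 * 2 ^ (N ^ 4 + 1) + 2 ^ Q ≤ (2 : ℝ) ^ (2 * N ^ 4))
    (hN0 : 1 ≤ N)
    (H1 : ∀ j ≤ 10 * N, ∀ (s : Fin j → Bool) (lv : Fin j → ℕ), (∀ l, 1 ≤ lv l) →
      (∀ l, lv l < 4 ^ (N + 8)) → Low (4 ^ (N + 8)) s lv → ∀ q : ℤ, |q| ≤ 2 ^ Q →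
      ((2 : ℝ) ^ (N ^ 4))⁻¹ ≤ |ss μ s lv + q|)
    {j : ℕ} (hj : j ≤ 10 * N) (s : Fin j → Bool) (lv : Fin j → ℕ) (hlv : ∀ l, 1 ≤ lv l)
    (hcard : (univ.filter fun l => 4 ^ (N + 8) ≤ lv l).card ≤ 2)
    (hLow : Low (4 ^ (N + 8)) s lv) {l₀ : Fin j} (hl₀ : 2 ^ (2 * N ^ 4) ≤ lv l₀) :
    ((2 : ℝ) ^ (N ^ 4))⁻¹ / 2 ≤ |ss μ s lv| := by
  have hM0 : 0 < M := hμ0.trans_le hμN
  have hL2 : 2 ≤ 4 ^ (N + 8) := by
    calc 2 ≤ 4 ^ 1 := by norm_num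
      _ ≤ 4 ^ (N + 8) := Nat.pow_le_pow_right (by norm_num) (by omega)
  generalize hL : 4 ^ (N + 8) = L at *
  have hlob : |∑ l ∈ univ.filter (fun l => ¬ L ≤ lv l), sg (s l) * om μ (lv l)| ≤
    10 * N * ((L : ℝ) + M) := low_boundQ hμ0.le hμN hj s lv
  have hn1 : (10 : ℝ) * N * ((L : ℝ) + M) + 1 ≤ 2 ^ Q := hn1'
  have hx0 : (0 : ℝ) < M ^ 2 * 2 ^ (N ^ 4 + 1) := by positivity
  have hxb := x_boundQ (N := N) hμ0 hμN
  have hg1 : ((2 : ℝ) ^ (N ^ 4))⁻¹ / 2 ≤ 1 := by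
    have h2 : ((2 : ℝ) ^ (N ^ 4))⁻¹ ≤ 1 := inv_le_one_of_one_le₀ (one_le_pow₀ (by norm_num))
    linarith
  have hl0R : (2 : ℝ) ^ (2 * N ^ 4) ≤ lv l₀ := by
    have h1 : ((2 ^ (2 * N ^ 4) : ℕ) : ℝ) ≤ lv l₀ := by exact_mod_cast hl₀
    push_cast at h1
    exact h1
  have hQ0 : (0 : ℝ) < M ^ 2 * 2 ^ (N ^ 4 + 1) := hx0
  have hLB : L ≤ lv l₀ := by
    have hN1 : 1 ≤ (N : ℝ) := by exact_mod_cast hN0
    have h2 : (L : ℝ) ≤ 10 * N * ((L : ℝ) + M) := by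
      have h4 : (0 : ℝ) ≤ L := Nat.cast_nonneg L
      nlinarith
    have h6 : (L : ℝ) ≤ lv l₀ := by linarith
    exact_mod_cast h6
  have hbig : (2 : ℝ) ^ (2 * N ^ 4) ≤ om μ (lv l₀) := by
    linarith [R2D.le_om hμ0.le (lv l₀)]
  have hsplit : ss μ s lv = (∑ l ∈ univ.filter (fun l => L ≤ lv l), sg (s l) * om μ (lv l)) +
      ∑ l ∈ univ.filter (fun l => ¬ L ≤ lv l), sg (s l) * om μ (lv l) := by
    rw [ss_eq, Finset.sum_filter_add_sum_filter_not]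
  have hl₀H : l₀ ∈ univ.filter (fun l : Fin j => L ≤ lv l) :=
    Finset.mem_filter.2 ⟨mem_univ _, hLB⟩
  have hrel := fun l₁ : Fin j => relabel μ hL2 s lv hlv (l₀ := l₀) (l₁ := l₁)
  rw [hsplit]
  generalize hlo : ∑ l ∈ univ.filter (fun l => ¬ L ≤ lv l), sg (s l) * om μ (lv l) = lo at *
  by_cases h1H : (univ.filter (fun l : Fin j => L ≤ lv l)).card ≤ 1
  · have hHe : univ.filter (fun l : Fin j => L ≤ lv l) = {l₀} := by
      refine Finset.eq_singleton_iff_unique_mem.2 ⟨hl₀H, fun x hx => ?_⟩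
      exact Finset.card_le_one.1 h1H x hx l₀ hl₀H
    rw [hHe, Finset.sum_singleton]
    have h4 := abs_ge (sg (s l₀) * om μ (lv l₀)) lo
    rw [abs_mul, sg_abs, one_mul, abs_of_nonneg (om_nonneg _)] at h4
    linarith
  have h2H : (univ.filter (fun l : Fin j => L ≤ lv l)).card = 2 := by omega
  obtain ⟨l₁, hl₁H, hl₁⟩ : ∃ l₁ ∈ univ.filter (fun l : Fin j => L ≤ lv l), l₁ ≠ l₀ := by
    obtain ⟨x, y, hxy, hHxy⟩ := Finset.card_eq_two.1 h2H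
    by_cases hx : x = l₀
    · exact ⟨y, by rw [hHxy]; simp, fun e => hxy (hx.trans e.symm)⟩
    · exact ⟨x, by rw [hHxy]; simp, hx⟩
  have hHe : univ.filter (fun l : Fin j => L ≤ lv l) = {l₀, l₁} := by
    symm
    refine Finset.eq_of_subset_of_card_le ?_ ?_
    · intro x hx
      rcases Finset.mem_insert.1 hx with h | h
      · rw [h]; exact hl₀H
      · rw [Finset.mem_singleton.1 h]; exact hl₁H
    · rw [h2H, Finset.card_pair hl₁.symm]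
  rw [hHe, Finset.sum_pair hl₁.symm]
  by_cases hsame : s l₁ = s l₀
  · rw [hsame]
    have h4 := abs_ge (sg (s l₀) * om μ (lv l₀) + sg (s l₀) * om μ (lv l₁)) lo
    have h3 : |sg (s l₀) * om μ (lv l₀) + sg (s l₀) * om μ (lv l₁)| =
        om μ (lv l₀) + om μ (lv l₁) := by
      rw [← mul_add, abs_mul, sg_abs, one_mul,
        abs_of_nonneg (add_nonneg (om_nonneg _) (om_nonneg _))]
    rw [h3] at h4
    have h5 := om_nonneg (μ := μ) (lv l₁)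
    linarith
  have hsg : sg (s l₁) = - sg (s l₀) := sg_opp hsame
  obtain ⟨lv', r1, r2, r3, r4⟩ := hrel l₁ hl₁.symm hHe hsg hLow
  by_cases hqb : |(lv l₀ : ℤ) - lv l₁| ≤ 2 ^ Q
  · -- both are large
    have hqR : |(lv l₀ : ℝ) - lv l₁| ≤ 2 ^ Q := by
      have h1 : ((|(lv l₀ : ℤ) - lv l₁| : ℤ) : ℝ) ≤ ((2 ^ Q : ℤ) : ℝ) := by
        exact_mod_cast hqb
      push_cast at h1
      exact h1
    have ha : M ^ 2 * 2 ^ (N ^ 4 + 1) ≤ lv l₀ := by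
      have : (0 : ℝ) ≤ 2 ^ Q := by positivity
      linarith
    have hb : M ^ 2 * 2 ^ (N ^ 4 + 1) ≤ lv l₁ := by
      have := (abs_le.1 hqR).2
      linarith
    have h6 := (om_int hμ0.le hx0 ha hb).trans hxb
    rw [hsg]
    have key : ∀ σ : ℤ, |(σ : ℝ)| = 1 → |σ| = 1 →
        ((2 : ℝ) ^ (N ^ 4))⁻¹ / 2 ≤ |(σ : ℝ) * om μ (lv l₀) + -(σ : ℝ) * om μ (lv l₁) + lo| := by
      intro σ hσ1 hσ2
      have h10 := H1 j hj s lv' r1 r2 r3 (σ * ((lv l₀ : ℤ) - lv l₁))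
        (by rw [abs_mul, hσ2, one_mul]; exact hqb)
      rw [r4] at h10
      push_cast at h10
      exact case_near hσ1 h10 rfl h6
    have hσ : sg (s l₀) = 1 ∨ sg (s l₀) = -1 := by cases s l₀ <;> simp [sg]
    rcases hσ with h | h
    · have := key 1 (by norm_num) (by norm_num)
      rw [h]
      simpa using this
    · have := key (-1) (by norm_num) (by norm_num)
      rw [h]
      simpa using this
  · -- far apart
    push Not at hqb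
    have hqR : (2 : ℝ) ^ Q ≤ |(lv l₀ : ℝ) - lv l₁| := by
      have h1 : ((2 ^ Q : ℤ) : ℝ) ≤ ((|(lv l₀ : ℤ) - lv l₁| : ℤ) : ℝ) := by
        exact_mod_cast hqb.le
      push_cast at h1
      exact h1
    have h3 := om_diff hμ0 (lv l₀) (lv l₁)
    rw [hsg]
    have h5 : sg (s l₀) * om μ (lv l₀) + -sg (s l₀) * om μ (lv l₁) =
        sg (s l₀) * (om μ (lv l₀) - om μ (lv l₁)) := by ring
    rw [h5]
    have h4 := abs_ge (sg (s l₀) * (om μ (lv l₀) - om μ (lv l₁))) lo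
    rw [abs_mul, sg_abs, one_mul] at h4
    linarith

/-! ### numbers -/

lemma nq1 {m N : ℕ} (hm : 1 ≤ m) (hN : 20 + m ≤ N) :
    10 * N * (4 ^ (N + 8) + 2 ^ (3 * m * N)) + 1 ≤ 2 ^ ((3 * m + 5) * N) := by
  have h1 := ten_le (N := N) (by omega)
  have h5 : (4 : ℕ) ^ (N + 8) = 2 ^ (2 * N + 16) := by
    rw [show (4 : ℕ) = 2 ^ 2 by norm_num, ← pow_mul]; congr 1
  have hmN : 3 * N ≤ 3 * m * N := by nlinarith
  have h2 : (4 : ℕ) ^ (N + 8) ≤ 2 ^ (3 * m * N) := by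
    rw [h5]; exact Nat.pow_le_pow_right (by norm_num) (by omega)
  have h6 : 10 * N * (4 ^ (N + 8) + 2 ^ (3 * m * N)) ≤ 2 ^ N * 2 ^ (3 * m * N + 1) := by
    refine Nat.mul_le_mul h1 ?_
    rw [pow_succ 2 (3 * m * N)]
    generalize (4 : ℕ) ^ (N + 8) = A at h2 ⊢
    omega
  rw [← pow_add] at h6
  have h7 : 2 ^ (N + (3 * m * N + 1)) + 1 ≤ 2 ^ (N + (3 * m * N + 1) + 1) := by
    rw [pow_succ]
    have : 0 < 2 ^ (N + (3 * m * N + 1)) := by positivity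
    omega
  have e : (3 * m + 5) * N = 3 * m * N + 5 * N := by ring
  have h8 : 2 ^ (N + (3 * m * N + 1) + 1) ≤ 2 ^ ((3 * m + 5) * N) :=
    Nat.pow_le_pow_right (by norm_num) (by rw [e]; omega)
  omega

lemma nq2 {m N : ℕ} (hm : 1 ≤ m) (hN : 20 + m ≤ N) :
    (2 ^ (3 * m * N)) ^ 2 * 2 ^ (N ^ 4 + 1) + 2 ^ ((3 * m + 5) * N) ≤ 2 ^ (2 * N ^ 4) := by
  have h6 : 6 * m * N + 5 * N + 2 ≤ N ^ 4 := by
    have h1 : m ≤ N := by omega
    have h2 : 6 * m * N ≤ 6 * N * N := by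
      have : 6 * m ≤ 6 * N := by omega
      exact Nat.mul_le_mul_right _ this
    have h3 : 400 ≤ N ^ 2 := by
      calc 400 = 20 ^ 2 := by norm_num
        _ ≤ N ^ 2 := Nat.pow_le_pow_left (by omega) 2
    have e : N ^ 4 = N ^ 2 * N ^ 2 := by ring
    have h4 : 400 * N ^ 2 ≤ N ^ 2 * N ^ 2 := Nat.mul_le_mul_right _ h3
    have h5 : N ≤ N ^ 2 := by nlinarith
    have e2 : 6 * N * N = 6 * N ^ 2 := by ring
    omega
  have e0 : (2 ^ (3 * m * N)) ^ 2 * 2 ^ (N ^ 4 + 1) = 2 ^ (6 * m * N + (N ^ 4 + 1)) := by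
    rw [← pow_mul, ← pow_add]; congr 1; ring
  have h7 : 2 ^ (6 * m * N + (N ^ 4 + 1)) ≤ 2 ^ (2 * N ^ 4 - 1) :=
    Nat.pow_le_pow_right (by norm_num) (by omega)
  have e1 : (3 * m + 5) * N = 3 * m * N + 5 * N := by ring
  have e3 : 6 * m * N = 2 * (3 * m * N) := by ring
  have h8 : 2 ^ ((3 * m + 5) * N) ≤ 2 ^ (2 * N ^ 4 - 1) :=
    Nat.pow_le_pow_right (by norm_num) (by rw [e1]; omega)
  have h9 : 2 ^ (2 * N ^ 4) = 2 * 2 ^ (2 * N ^ 4 - 1) := by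
    rw [← pow_succ']; congr 1; omega
  rw [e0]
  omega

/-- **HighCasesQ.** -/
theorem highCasesQ (m : ℕ) (hm : 1 ≤ m) : R2N.HighCasesQ m := by
  refine ⟨20 + m, fun N hN μ hμ H1 H2 j hj s lv hlv hcard hnb => ?_⟩
  have hN10 : 10 ≤ N := by omega
  have hμ0 : 0 < μ := (by positivity : (0 : ℝ) < ((2 : ℝ) ^ (3 * m * N))⁻¹).trans_le hμ.1
  have h1 : 10 * (N : ℝ) * (((4 ^ (N + 8) : ℕ) : ℝ) + (2 : ℝ) ^ (3 * m * N)) + 1 ≤
      2 ^ ((3 * m + 5) * N) := by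
    have := nq1 hm hN
    exact_mod_cast this
  have h2 : ((2 : ℝ) ^ (3 * m * N)) ^ 2 * 2 ^ (N ^ 4 + 1) + 2 ^ ((3 * m + 5) * N) ≤
      (2 : ℝ) ^ (2 * N ^ 4) := by
    have := nq2 hm hN
    exact_mod_cast this
  by_cases hLow : Low (4 ^ (N + 8)) s lv
  · by_cases hall : ∀ l, lv l < 2 ^ (2 * N ^ 4)
    · exact H2 j hj s lv hlv hall hcard hLow
    push Not at hall
    obtain ⟨l₀, hl₀⟩ := hall
    exact (g_le hN10).trans
      (case_hugeQ hμ0 hμ.2 h1 h2 (by omega) H1 hj s lv hlv hcard hLow hl₀)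
  · exact (g_le' hN10).trans (case_bal hμ0 s lv hlv hcard hnb hLow)

end Vale.Agent.P139.R2.H572
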