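import Vale.Agent.P139.R2.H836.Div

/-!
# P139 (team P139-N), row R1c (E): divisors with at most two high levels

Deterministic reduction of all signed sums of the frequencies `om μ (lv l)` with at most two levels
`≥ 4 ^ (N + 8)` to low sums with an integer part and to sums with bounded levels.
-/

set_option autoImplicit false
set_option linter.all false

namespace Vale.Agent.P139.R2.H572

open Finset
open Vale.Agent.P139.H212

/-- signed sum of the frequencies of a list -/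
noncomputable abbrev ss (μ : ℝ) {j : ℕ} (s : Fin j → Bool) (lv : Fin j → ℕ) : ℝ :=
  ∑ l, if s l then om μ (lv l) else -om μ (lv l)

/-- some level below `L` is not balanced -/
abbrev Low (L : ℕ) {j : ℕ} (s : Fin j → Bool) (lv : Fin j → ℕ) : Prop :=
  ∃ ν < L, (univ.filter fun l => s l = true ∧ lv l = ν).card ≠
    (univ.filter fun l => s l = false ∧ lv l = ν).card

/-- the sign -/
def sg (b : Bool) : ℝ := if b then 1 else -1

lemma sg_abs (b : Bool) : |sg b| = 1 := by cases b <;> simp [sg]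

lemma term_eq (μ : ℝ) (b : Bool) (m : ℕ) :
    (if b then om μ m else -om μ m) = sg b * om μ m := by cases b <;> simp [sg]

lemma ss_eq (μ : ℝ) {j : ℕ} (s : Fin j → Bool) (lv : Fin j → ℕ) :
    ss μ s lv = ∑ l, sg (s l) * om μ (lv l) := by
  unfold ss
  exact Finset.sum_congr rfl fun l _ => by simpa using term_eq μ (s l) (lv l)

lemma sg_sum {j : ℕ} (s : Fin j → Bool) (lv : Fin j → ℕ) (ν : ℕ) :
    ∑ l ∈ univ.filter (fun l => lv l = ν), sg (s l) =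
      ((univ.filter fun l => s l = true ∧ lv l = ν).card : ℝ) -
        ((univ.filter fun l => s l = false ∧ lv l = ν).card : ℝ) := by
  have h : ∀ l ∈ univ.filter (fun l => lv l = ν), sg (s l) =
      (if s l = true then (1 : ℝ) else 0) - (if s l = false then (1 : ℝ) else 0) := by
    intro l _
    cases h : s l <;> simp [sg]
  rw [Finset.sum_congr rfl h, Finset.sum_sub_distrib, Finset.sum_boole, Finset.sum_boole,
    Finset.filter_filter, Finset.filter_filter]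
  congr 3
  · ext l; simp [and_comm]
  · ext l; simp [and_comm]

/-- the balanced levels contribute nothing -/
lemma low_zero (μ : ℝ) {L j : ℕ} {s : Fin j → Bool} {lv : Fin j → ℕ} (h : ¬ Low L s lv) :
    ∑ l ∈ univ.filter (fun l => ¬ L ≤ lv l), sg (s l) * om μ (lv l) = 0 := by
  rw [← Finset.sum_fiberwise_of_maps_to (t := range L) (g := lv)
    (fun l hl => by simpa using hl)]
  refine Finset.sum_eq_zero fun ν hν => ?_
  have hν' : ν < L := Finset.mem_range.1 hν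
  rw [Finset.filter_filter]
  have e : (univ.filter fun l : Fin j => ¬ L ≤ lv l ∧ lv l = ν) = univ.filter fun l => lv l = ν := by
    ext l
    simp only [mem_filter, mem_univ, true_and]
    constructor
    · exact fun h => h.2
    · intro h; exact ⟨by omega, h⟩
  rw [e]
  have e2 : ∑ l ∈ univ.filter (fun l => lv l = ν), sg (s l) * om μ (lv l) =
      (∑ l ∈ univ.filter (fun l => lv l = ν), sg (s l)) * om μ ν := by
    rw [Finset.sum_mul]
    refine Finset.sum_congr rfl fun l hl => ?_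
    rw [(Finset.mem_filter.1 hl).2]
  rw [e2, sg_sum]
  have h3 : (univ.filter fun l => s l = true ∧ lv l = ν).card =
      (univ.filter fun l => s l = false ∧ lv l = ν).card := by
    by_contra hc
    exact h ⟨ν, hν', hc⟩
  rw [h3, sub_self, zero_mul]

lemma om_le {μ : ℝ} (hμ : 0 ≤ μ) (m : ℕ) : om μ m ≤ m + μ := by
  have := gg_nonneg hμ m
  unfold gg at this
  linarith

/-- bound of the low part -/
lemma low_bound {μ : ℝ} {N L j : ℕ} (hμ : 0 ≤ μ) (hN : μ ≤ N) (hj : j ≤ 10 * N)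
    (s : Fin j → Bool) (lv : Fin j → ℕ) :
    |∑ l ∈ univ.filter (fun l => ¬ L ≤ lv l), sg (s l) * om μ (lv l)| ≤
      10 * N * ((L : ℝ) + N) := by
  refine (Finset.abs_sum_le_sum_abs _ _).trans ?_
  have h1 : ∀ l ∈ univ.filter (fun l => ¬ L ≤ lv l), |sg (s l) * om μ (lv l)| ≤ (L : ℝ) + N := by
    intro l hl
    have hl' : lv l < L := by simpa using hl
    rw [abs_mul, sg_abs, one_mul, abs_of_nonneg (om_nonneg _)]
    have h2 := om_le hμ (lv l)
    have h3 : (lv l : ℝ) ≤ L := by exact_mod_cast hl'.le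
    linarith
  refine (Finset.sum_le_card_nsmul _ _ _ h1).trans ?_
  rw [nsmul_eq_mul]
  have h2 : ((univ.filter (fun l => ¬ L ≤ lv l)).card : ℝ) ≤ 10 * N := by
    have h3 : (univ.filter (fun l => ¬ L ≤ lv l)).card ≤ 10 * N :=
      (Finset.card_le_univ _).trans (by simpa using hj)
    exact_mod_cast h3
  have h4 : (0 : ℝ) ≤ (L : ℝ) + N := by positivity
  exact mul_le_mul_of_nonneg_right h2 h4

/-- difference of two frequencies -/
lemma om_diff {μ : ℝ} (hμ : 0 < μ) (a b : ℕ) : |(a : ℝ) - b| ≤ |om μ a - om μ b| := by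
  rcases le_total b a with h | h
  · obtain ⟨i, rfl⟩ := Nat.exists_eq_add_of_le h
    have h1 := R2D.om_sub hμ b i
    have h2 : (0 : ℝ) ≤ i := Nat.cast_nonneg i
    rw [abs_of_nonneg (by push_cast; linarith), abs_of_nonneg (by linarith)]
    push_cast
    linarith
  · obtain ⟨i, rfl⟩ := Nat.exists_eq_add_of_le h
    have h1 := R2D.om_sub hμ a i
    have h2 : (0 : ℝ) ≤ i := Nat.cast_nonneg i
    rw [abs_sub_comm, abs_sub_comm (om μ a), abs_of_nonneg (by push_cast; linarith),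
      abs_of_nonneg (by linarith)]
    push_cast
    linarith

/-- two large frequencies differ by nearly the integer -/
lemma om_int {μ : ℝ} (hμ : 0 ≤ μ) {a b : ℕ} {x : ℝ} (hx : 0 < x) (ha : x ≤ a) (hb : x ≤ b) :
    |(om μ a - om μ b) - ((a : ℝ) - b)| ≤ μ ^ 2 / x := by
  have ha0 : (0 : ℝ) < a := hx.trans_le ha
  have hb0 : (0 : ℝ) < b := hx.trans_le hb
  have ha1 : 1 ≤ a := by
    have : 0 < a := by exact_mod_cast ha0
    omega
  have hb1 : 1 ≤ b := by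
    have : 0 < b := by exact_mod_cast hb0
    omega
  have h1 := gg_le hμ ha1
  have h2 := gg_le hμ hb1
  have h3 := gg_nonneg hμ a
  have h4 := gg_nonneg hμ b
  have h5 : μ ^ 2 / (a : ℝ) ≤ μ ^ 2 / x := by gcongr
  have h6 : μ ^ 2 / (b : ℝ) ≤ μ ^ 2 / x := by gcongr
  rw [om_eq a, om_eq b, abs_le]
  constructor <;> linarith

/-! ### numbers -/

lemma ten_le {N : ℕ} (h : 10 ≤ N) : 10 * N ≤ 2 ^ N := by
  induction N, h using Nat.le_induction with
  | base => norm_num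
  | succ n hn ih => rw [pow_succ]; omega

lemma n1 {N : ℕ} (h : 10 ≤ N) : 10 * N * (4 ^ (N + 8) + N) + 1 ≤ 2 ^ (5 * N) := by
  have h1 := ten_le h
  have h2 : N ≤ 4 ^ (N + 8) := by
    have h3 : N < 2 ^ N := Nat.lt_two_pow_self
    have h4 : 2 ^ N ≤ 4 ^ (N + 8) := by
      calc 2 ^ N ≤ 4 ^ N := Nat.pow_le_pow_left (by norm_num) N
        _ ≤ 4 ^ (N + 8) := Nat.pow_le_pow_right (by norm_num) (by omega)
    omega
  have h5 : (4 : ℕ) ^ (N + 8) = 2 ^ (2 * N + 16) := by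
    rw [show (4 : ℕ) = 2 ^ 2 by norm_num, ← pow_mul]; congr 1
  have h6 : 10 * N * (4 ^ (N + 8) + N) ≤ 2 ^ N * 2 ^ (2 * N + 17) := by
    refine Nat.mul_le_mul h1 ?_
    have e : 2 ^ (2 * N + 17) = 2 ^ (2 * N + 16) * 2 := by rw [← pow_succ]
    rw [h5] at h2 ⊢
    rw [e]
    omega
  rw [← pow_add] at h6
  have h7 : 2 ^ (N + (2 * N + 17)) + 1 ≤ 2 ^ (N + (2 * N + 17) + 1) := by
    rw [pow_succ]
    have : 0 < 2 ^ (N + (2 * N + 17)) := by positivity
    omega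
  have h8 : 2 ^ (N + (2 * N + 17) + 1) ≤ 2 ^ (5 * N) :=
    Nat.pow_le_pow_right (by norm_num) (by omega)
  omega

lemma n2 {N : ℕ} (h : 10 ≤ N) : N ^ 2 * 2 ^ (N ^ 4 + 1) + 2 ^ (5 * N) ≤ 2 ^ (2 * N ^ 4) := by
  have h3 : N < 2 ^ N := Nat.lt_two_pow_self
  have h4 : N ^ 2 ≤ 2 ^ (2 * N) := by
    rw [mul_comm, pow_mul]; exact Nat.pow_le_pow_left h3.le 2
  have h5 : N ^ 2 * 2 ^ (N ^ 4 + 1) ≤ 2 ^ (2 * N + (N ^ 4 + 1)) := by
    rw [pow_add 2 (2 * N)]; exact Nat.mul_le_mul_right _ h4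
  have h6 : 5 * N + 2 ≤ N ^ 4 := by
    have : N * 1000 ≤ N * N ^ 3 := Nat.mul_le_mul_left _ (by
      calc 1000 = 10 ^ 3 := by norm_num
        _ ≤ N ^ 3 := Nat.pow_le_pow_left h 3)
    have e : N ^ 4 = N * N ^ 3 := by ring
    omega
  have h7 : 2 ^ (2 * N + (N ^ 4 + 1)) ≤ 2 ^ (2 * N ^ 4 - 1) :=
    Nat.pow_le_pow_right (by norm_num) (by omega)
  have h8 : 2 ^ (5 * N) ≤ 2 ^ (2 * N ^ 4 - 1) := Nat.pow_le_pow_right (by norm_num) (by omega)
  have h9 : 2 ^ (2 * N ^ 4) = 2 * 2 ^ (2 * N ^ 4 - 1) := by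
    rw [← pow_succ']; congr 1; omega
  omega

lemma n3 {N : ℕ} (h : 10 ≤ N) : N ^ 4 + 2 ≤ N ^ 6 := by
  have h1 : 2 ≤ N ^ 4 := by
    calc 2 ≤ 10 ^ 4 := by norm_num
      _ ≤ N ^ 4 := Nat.pow_le_pow_left h 4
  have h2 : N ^ 4 * 100 ≤ N ^ 4 * N ^ 2 := Nat.mul_le_mul_left _ (by
    calc 100 = 10 ^ 2 := by norm_num
      _ ≤ N ^ 2 := Nat.pow_le_pow_left h 2)
  have e : N ^ 6 = N ^ 4 * N ^ 2 := by ring
  omega

lemma g_le {N : ℕ} (h : 10 ≤ N) : 2 * ((2 : ℝ) ^ (N ^ 6))⁻¹ ≤ ((2 : ℝ) ^ (N ^ 4))⁻¹ / 2 := by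
  have h1 : (2 : ℝ) ^ (N ^ 4 + 2) ≤ 2 ^ (N ^ 6) := pow_le_pow_right₀ (by norm_num) (n3 h)
  have h2 : ((2 : ℝ) ^ (N ^ 6))⁻¹ ≤ ((2 : ℝ) ^ (N ^ 4 + 2))⁻¹ :=
    inv_anti₀ (by positivity) h1
  have h3 : ((2 : ℝ) ^ (N ^ 4 + 2))⁻¹ = ((2 : ℝ) ^ (N ^ 4))⁻¹ / 4 := by
    rw [pow_add, mul_inv]; norm_num; ring
  rw [h3] at h2
  linarith

lemma g_le' {N : ℕ} (h : 10 ≤ N) : 2 * ((2 : ℝ) ^ (N ^ 6))⁻¹ ≤ 1 := by
  have h1 := g_le h
  have h2 : ((2 : ℝ) ^ (N ^ 4))⁻¹ ≤ 1 := inv_le_one_of_one_le₀ (one_le_pow₀ (by norm_num))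
  linarith

lemma sg_opp {a b : Bool} (h : ¬ b = a) : sg b = - sg a := by
  cases a <;> cases b <;> first | exact absurd rfl h | norm_num [sg]

lemma abs_ge (A lo : ℝ) : |A| - |lo| ≤ |A + lo| := by
  have h4 := abs_sub_abs_le_abs_sub A (-lo)
  rwa [abs_neg, sub_neg_eq_add] at h4

/-- replacing two high levels of opposite sign by the level `1` -/
lemma relabel (μ : ℝ) {L j : ℕ} (hL2 : 2 ≤ L) (s : Fin j → Bool) (lv : Fin j → ℕ)
    (hlv : ∀ l, 1 ≤ lv l) {l₀ l₁ : Fin j} (hne : l₀ ≠ l₁)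
    (hHe : univ.filter (fun l : Fin j => L ≤ lv l) = {l₀, l₁}) (hsg : sg (s l₁) = - sg (s l₀))
    (hLow : Low L s lv) :
    ∃ lv' : Fin j → ℕ, (∀ l, 1 ≤ lv' l) ∧ (∀ l, lv' l < L) ∧ Low L s lv' ∧
      ss μ s lv' = ∑ l ∈ univ.filter (fun l => ¬ L ≤ lv l), sg (s l) * om μ (lv l) := by
  have hM0 : L ≤ lv l₀ := by
    have : l₀ ∈ univ.filter (fun l : Fin j => L ≤ lv l) := by rw [hHe]; simp
    exact (Finset.mem_filter.1 this).2
  have hM1 : L ≤ lv l₁ := by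
    have : l₁ ∈ univ.filter (fun l : Fin j => L ≤ lv l) := by rw [hHe]; simp
    exact (Finset.mem_filter.1 this).2
  set lv' : Fin j → ℕ := fun l => if L ≤ lv l then 1 else lv l with hlv'
  have e2 : lv' l₀ = 1 := by simp only [hlv']; rw [if_pos hM0]
  have e3 : lv' l₁ = 1 := by simp only [hlv']; rw [if_pos hM1]
  have e4 : ∀ l, ¬ L ≤ lv l → lv' l = lv l := fun l hl => by simp only [hlv']; rw [if_neg hl]
  clear_value lv'
  refine ⟨lv', ?_, ?_, ?_, ?_⟩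
  · intro l
    by_cases h : L ≤ lv l
    · rw [hlv']; simp [h]
    · rw [e4 l h]; exact hlv l
  · intro l
    by_cases h : L ≤ lv l
    · have : lv' l = 1 := by rw [hlv']; simp [h]
      omega
    · rw [e4 l h]; omega
  · obtain ⟨ν, hν, hnn⟩ := hLow
    refine ⟨ν, hν, ?_⟩
    intro hc
    apply hnn
    have k1 := sg_sum s lv ν
    have k2 := sg_sum s lv' ν
    have k3 : ∑ l ∈ univ.filter (fun l => lv' l = ν), sg (s l) =
        ∑ l ∈ univ.filter (fun l => lv l = ν), sg (s l) := by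
      rw [Finset.sum_filter, Finset.sum_filter,
        ← Finset.sum_filter_add_sum_filter_not univ (fun l => L ≤ lv l),
        ← Finset.sum_filter_add_sum_filter_not univ (fun l => L ≤ lv l)
          (fun l => if lv l = ν then sg (s l) else 0)]
      congr 1
      · rw [hHe, Finset.sum_pair hne, Finset.sum_pair hne]
        have e5 : lv l₀ ≠ ν := by omega
        have e6 : lv l₁ ≠ ν := by omega
        rw [e2, e3, if_neg e5, if_neg e6, hsg]
        split_ifs <;> ring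
      · refine Finset.sum_congr rfl fun l hl => ?_
        rw [e4 l (Finset.mem_filter.1 hl).2]
    rw [k1, k2, hc, sub_self] at k3
    have k4 : ((univ.filter fun l => s l = true ∧ lv l = ν).card : ℝ) =
        ((univ.filter fun l => s l = false ∧ lv l = ν).card : ℝ) := by linarith
    exact_mod_cast k4
  · rw [ss_eq, ← Finset.sum_filter_add_sum_filter_not univ (fun l => L ≤ lv l)]
    have e1 : ∑ l ∈ univ.filter (fun l => L ≤ lv l), sg (s l) * om μ (lv' l) = 0 := by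
      rw [hHe, Finset.sum_pair hne, e2, e3, hsg]
      ring
    rw [e1, zero_add]
    refine Finset.sum_congr rfl fun l hl => ?_
    rw [e4 l (Finset.mem_filter.1 hl).2]

/-- the low part is balanced -/
lemma case_bal {μ : ℝ} (hμ0 : 0 < μ) {L j : ℕ} (s : Fin j → Bool) (lv : Fin j → ℕ)
    (hlv : ∀ l, 1 ≤ lv l) (hcard : (univ.filter fun l => L ≤ lv l).card ≤ 2)
    (hnb : ¬ (∀ ν : ℕ, (univ.filter fun l => s l = true ∧ lv l = ν).card =
        (univ.filter fun l => s l = false ∧ lv l = ν).card)) (hLow : ¬ Low L s lv) :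
    1 ≤ |ss μ s lv| := by
  set H := univ.filter (fun l : Fin j => L ≤ lv l) with hH
  have hsplit : ss μ s lv = ∑ l ∈ H, sg (s l) * om μ (lv l) := by
    rw [ss_eq, ← Finset.sum_filter_add_sum_filter_not univ (fun l => L ≤ lv l), low_zero μ hLow,
      add_zero]
  rw [hsplit]
  have hex : ∃ ν, L ≤ ν ∧ (univ.filter fun l => s l = true ∧ lv l = ν).card ≠
      (univ.filter fun l => s l = false ∧ lv l = ν).card := by
    by_contra hc
    push Not at hc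
    refine hnb fun ν => ?_
    rcases Nat.lt_or_ge ν L with h | h
    · by_contra hne
      exact hLow ⟨ν, h, hne⟩
    · exact hc ν h
  obtain ⟨ν, hνL, hν⟩ := hex
  have hone : ∀ l, 1 ≤ om μ (lv l) := fun l => one_le_om hμ0.le (hlv l)
  by_cases h0H : H.card = 0
  · exfalso
    apply hν
    have hHe : H = ∅ := Finset.card_eq_zero.1 h0H
    have e1 : ∀ l, lv l ≠ ν := by
      intro l hl
      have : l ∈ H := Finset.mem_filter.2 ⟨mem_univ _, by omega⟩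
      rw [hHe] at this
      exact absurd this (Finset.notMem_empty _)
    rw [Finset.filter_false_of_mem (fun l _ h => e1 l h.2),
      Finset.filter_false_of_mem (fun l _ h => e1 l h.2)]
  by_cases h1H : H.card = 1
  · obtain ⟨l₀, hHe⟩ := Finset.card_eq_one.1 h1H
    rw [hHe, Finset.sum_singleton, abs_mul, sg_abs, one_mul, abs_of_nonneg (om_nonneg _)]
    exact hone l₀
  have h2H : H.card = 2 := by omega
  obtain ⟨l₀, l₁, hne, hHe⟩ := Finset.card_eq_two.1 h2H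
  rw [hHe, Finset.sum_pair hne]
  by_cases hsame : s l₁ = s l₀
  · rw [hsame, ← mul_add, abs_mul, sg_abs, one_mul,
      abs_of_nonneg (add_nonneg (om_nonneg _) (om_nonneg _))]
    linarith [hone l₀, hone l₁]
  have hsg : sg (s l₁) = - sg (s l₀) := sg_opp hsame
  have hdiff : lv l₀ ≠ lv l₁ := by
    intro he
    apply hν
    have k1 := sg_sum s lv ν
    have k3 : ∑ l ∈ univ.filter (fun l => lv l = ν), sg (s l) = 0 := by
      have e1 : univ.filter (fun l => lv l = ν) = H.filter (fun l => lv l = ν) := by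
        ext l
        simp only [hH, mem_filter, mem_univ, true_and]
        constructor
        · intro h; exact ⟨by omega, h⟩
        · exact fun h => h.2
      rw [e1, hHe, Finset.sum_filter, Finset.sum_pair hne, he, hsg]
      split_ifs <;> ring
    rw [k3] at k1
    have k4 : ((univ.filter fun l => s l = true ∧ lv l = ν).card : ℝ) =
        ((univ.filter fun l => s l = false ∧ lv l = ν).card : ℝ) := by linarith
    exact_mod_cast k4
  rw [hsg]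
  have h5 : sg (s l₀) * om μ (lv l₀) + -sg (s l₀) * om μ (lv l₁) =
      sg (s l₀) * (om μ (lv l₀) - om μ (lv l₁)) := by ring
  rw [h5, abs_mul, sg_abs, one_mul]
  have h3 := om_diff hμ0 (lv l₀) (lv l₁)
  have h6 : (1 : ℝ) ≤ |(lv l₀ : ℝ) - lv l₁| := by
    have h7 : (1 : ℤ) ≤ |(lv l₀ : ℤ) - lv l₁| := by
      apply Int.one_le_abs
      omega
    exact_mod_cast h7
  linarith

/-- two high levels of opposite signs, close to each other -/
lemma case_near {μ lo g q : ℝ} {a b : ℕ} {σ : ℤ} (hσ1 : |(σ : ℝ)| = 1)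
    (h10 : g ≤ |lo + σ * q|) (hq : q = (a : ℝ) - b)
    (h6 : |(om μ a - om μ b) - ((a : ℝ) - b)| ≤ g / 2) :
    g / 2 ≤ |(σ : ℝ) * om μ a + -(σ : ℝ) * om μ b + lo| := by
  have h11 : (σ : ℝ) * om μ a + -(σ : ℝ) * om μ b + lo =
      (lo + σ * q) + σ * ((om μ a - om μ b) - ((a : ℝ) - b)) := by
    rw [hq]; ring
  rw [h11]
  have h12 : |(σ : ℝ) * ((om μ a - om μ b) - ((a : ℝ) - b))| ≤ g / 2 := by
    rw [abs_mul, hσ1, one_mul]
    exact h6
  have h13 := abs_ge (lo + σ * q) (σ * ((om μ a - om μ b) - ((a : ℝ) - b)))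
  linarith

lemma x_bound {μ : ℝ} {N : ℕ} (hN : 10 ≤ N) (hμ0 : 0 ≤ μ) (hμN : μ ≤ N) :
    μ ^ 2 / ((N : ℝ) ^ 2 * 2 ^ (N ^ 4 + 1)) ≤ ((2 : ℝ) ^ (N ^ 4))⁻¹ / 2 := by
  have hNpos : (0 : ℝ) < N := by
    have : (10 : ℝ) ≤ N := by exact_mod_cast hN
    linarith
  have h8 : μ ^ 2 ≤ (N : ℝ) ^ 2 := by gcongr
  rw [pow_succ (2 : ℝ) (N ^ 4)]
  generalize hA : (2 : ℝ) ^ (N ^ 4) = A
  have hA0 : 0 < A := by rw [← hA]; positivity
  rw [div_le_iff₀ (by positivity)]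
  have h9 : A⁻¹ / 2 * ((N : ℝ) ^ 2 * (A * 2)) = (N : ℝ) ^ 2 := by
    field_simp
  rw [h9]
  exact h8

/-- the low part is not balanced, one level is huge -/
lemma case_huge {μ : ℝ} {N : ℕ} (hN : 10 ≤ N) (hμ0 : 0 < μ) (hμN : μ ≤ N)
    (H1 : ∀ j ≤ 10 * N, ∀ (s : Fin j → Bool) (lv : Fin j → ℕ), (∀ l, 1 ≤ lv l) →
      (∀ l, lv l < 4 ^ (N + 8)) → Low (4 ^ (N + 8)) s lv → ∀ q : ℤ, |q| ≤ 2 ^ (5 * N) →
      ((2 : ℝ) ^ (N ^ 4))⁻¹ ≤ |ss μ s lv + q|)
    {j : ℕ} (hj : j ≤ 10 * N) (s : Fin j → Bool) (lv : Fin j → ℕ) (hlv : ∀ l, 1 ≤ lv l)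
    (hcard : (univ.filter fun l => 4 ^ (N + 8) ≤ lv l).card ≤ 2)
    (hLow : Low (4 ^ (N + 8)) s lv) {l₀ : Fin j} (hl₀ : 2 ^ (2 * N ^ 4) ≤ lv l₀) :
    ((2 : ℝ) ^ (N ^ 4))⁻¹ / 2 ≤ |ss μ s lv| := by
  have hn1' := n1 hN
  have hL2 : 2 ≤ 4 ^ (N + 8) := by
    calc 2 ≤ 4 ^ 1 := by norm_num
      _ ≤ 4 ^ (N + 8) := Nat.pow_le_pow_right (by norm_num) (by omega)
  generalize hL : 4 ^ (N + 8) = L at *
  have hN10 : (10 : ℝ) ≤ N := by exact_mod_cast hN
  have hlob : |∑ l ∈ univ.filter (fun l => ¬ L ≤ lv l), sg (s l) * om μ (lv l)| ≤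
    10 * N * ((L : ℝ) + N) := low_bound hμ0.le hμN hj s lv
  have hn1 : (10 : ℝ) * N * ((L : ℝ) + N) + 1 ≤ 2 ^ (5 * N) := by exact_mod_cast hn1'
  have hn2 : (N : ℝ) ^ 2 * 2 ^ (N ^ 4 + 1) + 2 ^ (5 * N) ≤ 2 ^ (2 * N ^ 4) := by
    exact_mod_cast n2 hN
  have hx0 : (0 : ℝ) < (N : ℝ) ^ 2 * 2 ^ (N ^ 4 + 1) := by positivity
  have hxb := x_bound hN hμ0.le hμN
  have hg1 : ((2 : ℝ) ^ (N ^ 4))⁻¹ / 2 ≤ 1 := by
    have h2 : ((2 : ℝ) ^ (N ^ 4))⁻¹ ≤ 1 := inv_le_one_of_one_le₀ (one_le_pow₀ (by norm_num))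
    linarith
  have hl0R : (2 : ℝ) ^ (2 * N ^ 4) ≤ lv l₀ := by
    have h1 : ((2 ^ (2 * N ^ 4) : ℕ) : ℝ) ≤ lv l₀ := by exact_mod_cast hl₀
    push_cast at h1
    exact h1
  have hLB : L ≤ lv l₀ := by
    have h2 : (L : ℝ) ≤ 10 * N * ((L : ℝ) + N) := by
      have h4 : (0 : ℝ) ≤ L := Nat.cast_nonneg L
      nlinarith
    have h6 : (L : ℝ) ≤ lv l₀ := by linarith
    exact_mod_cast h6
  have hbig : (2 : ℝ) ^ (2 * N ^ 4) ≤ om μ (lv l₀) := by
    linarith [R2D.le_om hμ0.le (lv l₀)]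
  have hsplit : ss μ s lv = (∑ l ∈ univ.filter (fun l => L ≤ lv l), sg (s l) * om μ (lv l)) +
      ∑ l ∈ univ.filter (fun l => ¬ L ≤ lv l), sg (s l) * om μ (lv l) := by
    rw [ss_eq, Finset.sum_filter_add_sum_filter_not]
  have hl₀H : l₀ ∈ univ.filter (fun l : Fin j => L ≤ lv l) :=
    Finset.mem_filter.2 ⟨mem_univ _, hLB⟩
  have hrel := fun l₁ : Fin j => relabel μ hL2 s lv hlv (l₀ := l₀) (l₁ := l₁)
  rw [hsplit]
  generalize hlo : ∑ l ∈ univ.filter (fun l => ¬ L ≤ lv l), sg (s l) * om μ (lv l) = lo at *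
  by_cases h1H : (univ.filter (fun l : Fin j => L ≤ lv l)).card ≤ 1
  · have hHe : univ.filter (fun l : Fin j => L ≤ lv l) = {l₀} := by
      refine Finset.eq_singleton_iff_unique_mem.2 ⟨hl₀H, fun x hx => ?_⟩
      exact Finset.card_le_one.1 h1H x hx l₀ hl₀H
    rw [hHe, Finset.sum_singleton]
    have h4 := abs_ge (sg (s l₀) * om μ (lv l₀)) lo
    rw [abs_mul, sg_abs, one_mul, abs_of_nonneg (om_nonneg _)] at h4
    linarith
  have h2H : (univ.filter (fun l : Fin j => L ≤ lv l)).card = 2 := by omega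
  obtain ⟨l₁, hl₁H, hl₁⟩ : ∃ l₁ ∈ univ.filter (fun l : Fin j => L ≤ lv l), l₁ ≠ l₀ := by
    obtain ⟨x, y, hxy, hHxy⟩ := Finset.card_eq_two.1 h2H
    by_cases hx : x = l₀
    · exact ⟨y, by rw [hHxy]; simp, fun e => hxy (hx.trans e.symm)⟩
    · exact ⟨x, by rw [hHxy]; simp, hx⟩
  have hHe : univ.filter (fun l : Fin j => L ≤ lv l) = {l₀, l₁} := by
    symm
    refine Finset.eq_of_subset_of_card_le ?_ ?_
    · intro x hx
      rcases Finset.mem_insert.1 hx with h | h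
      · rw [h]; exact hl₀H
      · rw [Finset.mem_singleton.1 h]; exact hl₁H
    · rw [h2H, Finset.card_pair hl₁.symm]
  rw [hHe, Finset.sum_pair hl₁.symm]
  by_cases hsame : s l₁ = s l₀
  · rw [hsame]
    have h4 := abs_ge (sg (s l₀) * om μ (lv l₀) + sg (s l₀) * om μ (lv l₁)) lo
    have h3 : |sg (s l₀) * om μ (lv l₀) + sg (s l₀) * om μ (lv l₁)| =
        om μ (lv l₀) + om μ (lv l₁) := by
      rw [← mul_add, abs_mul, sg_abs, one_mul,
        abs_of_nonneg (add_nonneg (om_nonneg _) (om_nonneg _))]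
    rw [h3] at h4
    have h5 := om_nonneg (μ := μ) (lv l₁)
    linarith
  have hsg : sg (s l₁) = - sg (s l₀) := sg_opp hsame
  obtain ⟨lv', r1, r2, r3, r4⟩ := hrel l₁ hl₁.symm hHe hsg hLow
  by_cases hqb : |(lv l₀ : ℤ) - lv l₁| ≤ 2 ^ (5 * N)
  · -- both are large
    have hqR : |(lv l₀ : ℝ) - lv l₁| ≤ 2 ^ (5 * N) := by
      have h1 : ((|(lv l₀ : ℤ) - lv l₁| : ℤ) : ℝ) ≤ ((2 ^ (5 * N) : ℤ) : ℝ) := by
        exact_mod_cast hqb
      push_cast at h1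
      exact h1
    have ha : (N : ℝ) ^ 2 * 2 ^ (N ^ 4 + 1) ≤ lv l₀ := by
      have : (0 : ℝ) ≤ 2 ^ (5 * N) := by positivity
      linarith
    have hb : (N : ℝ) ^ 2 * 2 ^ (N ^ 4 + 1) ≤ lv l₁ := by
      have := (abs_le.1 hqR).2
      linarith
    have h6 := (om_int hμ0.le hx0 ha hb).trans hxb
    rw [hsg]
    have key : ∀ σ : ℤ, |(σ : ℝ)| = 1 → |σ| = 1 →
        ((2 : ℝ) ^ (N ^ 4))⁻¹ / 2 ≤ |(σ : ℝ) * om μ (lv l₀) + -(σ : ℝ) * om μ (lv l₁) + lo| := by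
      intro σ hσ1 hσ2
      have h10 := H1 j hj s lv' r1 r2 r3 (σ * ((lv l₀ : ℤ) - lv l₁))
        (by rw [abs_mul, hσ2, one_mul]; exact hqb)
      rw [r4] at h10
      push_cast at h10
      exact case_near hσ1 h10 rfl h6
    have hσ : sg (s l₀) = 1 ∨ sg (s l₀) = -1 := by cases s l₀ <;> simp [sg]
    rcases hσ with h | h
    · have := key 1 (by norm_num) (by norm_num)
      rw [h]
      simpa using this
    · have := key (-1) (by norm_num) (by norm_num)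
      rw [h]
      simpa using this
  · -- far apart
    push Not at hqb
    have hqR : (2 : ℝ) ^ (5 * N) ≤ |(lv l₀ : ℝ) - lv l₁| := by
      have h1 : ((2 ^ (5 * N) : ℤ) : ℝ) ≤ ((|(lv l₀ : ℤ) - lv l₁| : ℤ) : ℝ) := by
        exact_mod_cast hqb.le
      push_cast at h1
      exact h1
    have h3 := om_diff hμ0 (lv l₀) (lv l₁)
    rw [hsg]
    have h5 : sg (s l₀) * om μ (lv l₀) + -sg (s l₀) * om μ (lv l₁) =
        sg (s l₀) * (om μ (lv l₀) - om μ (lv l₁)) := by ring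
    rw [h5]
    have h4 := abs_ge (sg (s l₀) * (om μ (lv l₀) - om μ (lv l₁))) lo
    rw [abs_mul, sg_abs, one_mul] at h4
    linarith

/-- **HighCases.** -/
theorem highCases : ∃ N₂ : ℕ, ∀ N : ℕ, N₂ ≤ N → ∀ μ ∈ Set.Icc (1 / (N : ℝ)) N,
    (∀ j ≤ 10 * N, ∀ (s : Fin j → Bool) (lv : Fin j → ℕ), (∀ l, 1 ≤ lv l) →
      (∀ l, lv l < 4 ^ (N + 8)) → Low (4 ^ (N + 8)) s lv → ∀ q : ℤ, |q| ≤ 2 ^ (5 * N) →
      ((2 : ℝ) ^ (N ^ 4))⁻¹ ≤ |ss μ s lv + q|) →
    (∀ j ≤ 10 * N, ∀ (s : Fin j → Bool) (lv : Fin j → ℕ), (∀ l, 1 ≤ lv l) →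
      (∀ l, lv l < 2 ^ (2 * N ^ 4)) → (univ.filter fun l => 4 ^ (N + 8) ≤ lv l).card ≤ 2 →
      Low (4 ^ (N + 8)) s lv → 2 * ((2 : ℝ) ^ (N ^ 6))⁻¹ ≤ |ss μ s lv|) →
    ∀ j ≤ 10 * N, ∀ (s : Fin j → Bool) (lv : Fin j → ℕ), (∀ l, 1 ≤ lv l) →
      (univ.filter fun l => 4 ^ (N + 8) ≤ lv l).card ≤ 2 →
      ¬ (∀ ν : ℕ, (univ.filter fun l => s l = true ∧ lv l = ν).card =
        (univ.filter fun l => s l = false ∧ lv l = ν).card) →
      2 * ((2 : ℝ) ^ (N ^ 6))⁻¹ ≤ |ss μ s lv| := by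
  refine ⟨10, fun N hN μ hμ H1 H2 j hj s lv hlv hcard hnb => ?_⟩
  have hNpos : (0 : ℝ) < N := by
    have : (10 : ℝ) ≤ N := by exact_mod_cast hN
    linarith
  have hμ0 : 0 < μ := (by positivity : (0 : ℝ) < 1 / N).trans_le hμ.1
  by_cases hLow : Low (4 ^ (N + 8)) s lv
  · by_cases hall : ∀ l, lv l < 2 ^ (2 * N ^ 4)
    · exact H2 j hj s lv hlv hall hcard hLow
    push Not at hall
    obtain ⟨l₀, hl₀⟩ := hall
    exact (g_le hN).trans (case_huge hN hμ0 hμ.2 H1 hj s lv hlv hcard hLow hl₀)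
  · exact (g_le' hN).trans (case_bal hμ0 s lv hlv hcard hnb hLow)

end Vale.Agent.P139.R2.H572
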